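import Vale.Agent.P161.Limit
import Vale.Agent.P161.Cov
import Vale.Agent.P161.Unique
import Vale.Agent.P161.Exist
import Vale.Agent.P161.TreeDist

/-!
# The free Ising measure on a tree is a factor of IID below the reconstruction threshold
-/

open MeasureTheory Set Filter Topology
open Vale.Agent.P161

namespace Vale.Agent.Results.P161.Subcritical

universe u

/-- Let `d ≥ 3`, let `G` be a tree whose vertices have at most `d` neighbours (for instance the
`d`-regular tree) and let `β ≥ 0` satisfy `(d - 1) (tanh β)² < 1`. Then there is exactly one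
free zero-field Ising measure on `G` at inverse temperature `β`, and it is a factor of IID. -/
theorem result {V : Type u} (G : SimpleGraph V) (hG : G.IsTree) (d : ℕ) (hd : 3 ≤ d)
    (hdeg : ∀ v, (G.neighborSet v).encard ≤ d) (β : ℝ) (hβ : 0 ≤ β)
    (h : ((d : ℝ) - 1) * Real.tanh β ^ 2 < 1) :
    ∃ μ : Measure (V → Bool), IsFreeIsing G (Real.tanh β) μ ∧
      (∀ ν : Measure (V → Bool), IsFreeIsing G (Real.tanh β) ν → ν = μ) ∧
      IsFactorOfIID G μ := by
  have hd2 : 2 ≤ d := by omega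
  have hfin : ∀ v, (G.neighborSet v).Finite := fun v =>
    Set.finite_of_encard_le_coe (hdeg v)
  have hdeg' : ∀ v, (G.neighborSet v).ncard ≤ d := by
    intro v
    have h1 := hdeg v
    rw [← (hfin v).cast_ncard_eq] at h1
    exact_mod_cast h1
  set θ := Real.tanh β with hθdef
  have hθ : 0 ≤ θ := by
    rw [hθdef, Real.tanh_eq_sinh_div_cosh]
    exact div_nonneg (Real.sinh_nonneg_iff.mpr hβ) (Real.cosh_pos β).le
  have hθ1 : θ < 1 := by
    rw [hθdef]
    exact Real.tanh_lt_one β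
  have hV : Countable V := countable_of_connected hG.1 hfin
  obtain ⟨μ, hμ⟩ := exists_isFreeIsing hG (θ := θ) (by rw [abs_of_nonneg hθ]; exact hθ1.le)
  refine ⟨μ, hμ, fun ν hν => isFreeIsing_unique hG.1 hν hμ, ?_⟩
  have := hμ.prob
  obtain ⟨r, hr1, hr2⟩ : ∃ r, θ < r ∧ ((d : ℝ) - 1) * r ^ 2 < 1 := by
    have hc : ContinuousAt (fun r : ℝ => ((d : ℝ) - 1) * r ^ 2) θ := by fun_prop
    have h1 : ∀ᶠ r in 𝓝 θ, ((d : ℝ) - 1) * r ^ 2 < 1 := hc.eventually_lt_const h
    have h2 : ∀ᶠ r in 𝓝[>] θ, ((d : ℝ) - 1) * r ^ 2 < 1 := nhdsWithin_le_nhds h1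
    obtain ⟨r, hr⟩ := (h2.and self_mem_nhdsWithin).exists
    exact ⟨r, hr.2, hr.1⟩
  obtain ⟨C, hC, hconv⟩ := kernel_conv hG hd2 hfin hdeg' hθ hr1 hr2
  have hr0 : 0 ≤ r := hθ.trans hr1.le
  obtain ⟨Φ, hΦ, hlaw, heq⟩ := factor_of_kernel μ (fun v w => 2 * θ ^ G.dist v w)
    (fun v w => r ^ G.dist v w) (2 * C) (fun v w => by positivity) (fun v w => by positivity)
    (fun v => by simp) (fun D v z => by
      have := hconv D v z
      calc ∑ w ∈ D, 2 * θ ^ G.dist v w * r ^ G.dist w z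
          = 2 * ∑ w ∈ D, θ ^ G.dist v w * r ^ G.dist w z := by
            rw [Finset.mul_sum]; exact Finset.sum_congr rfl fun w _ => by ring
        _ ≤ 2 * C * r ^ G.dist v z := by linarith)
    (fun v => kernel_summable hG hd2 hfin hdeg' hr0 hr2 v)
    (fun D v Y Y' => mean_lip hG hfin hθ hθ1 hμ D v Y Y')
  refine ⟨Φ, hΦ, hlaw, fun g => heq g.toEquiv ?_⟩
  exact isFreeIsing_unique hG.1 (isFreeIsing_translate hμ g) hμ

end Vale.Agent.Results.P161.Subcritical
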