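import Vale.Agent.P161E.Crit
import Vale.Agent.P161E.FinalCore

/-!
# The free Ising measure on the regular tree is a factor of IID exactly up to the
# reconstruction threshold, endpoint included
-/

open MeasureTheory Set Filter Topology
open Vale.Agent.P161

namespace Vale.Agent.Results.P161.Threshold

universe u

/-- Let `d ≥ 3`, let `G` be the `d`-regular tree (a tree all of whose vertices have exactly `d`
neighbours) and let `β ≥ 0`. There is exactly one free zero-field Ising measure on `G` at inverse
temperature `β`, and it is a factor of IID if and only if `(d - 1) (tanh β)² ≤ 1`. -/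
theorem result {V : Type u} (G : SimpleGraph V) (hG : G.IsTree) (d : ℕ) (hd : 3 ≤ d)
    (hdeg : ∀ v, (G.neighborSet v).encard = d) (β : ℝ) (hβ : 0 ≤ β) :
    ∃ μ : Measure (V → Bool), IsFreeIsing G (Real.tanh β) μ ∧
      (∀ ν : Measure (V → Bool), IsFreeIsing G (Real.tanh β) ν → ν = μ) ∧
      (IsFactorOfIID G μ ↔ ((d : ℝ) - 1) * Real.tanh β ^ 2 ≤ 1) :=
  Vale.Agent.P161E.final_core (fun hb T _ hμ => Vale.Agent.P161E.fiid_critical hb T hμ)
    G hG d hd hdeg β hβ

end Vale.Agent.Results.P161.Threshold
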